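import Vale.Agent.P207.N3.H143.Rel
import Vale.Agent.P207.N3.H147.Fwd

/-!
# P207, N3, Case 2 (4.6 ii): the slow direction

`Side T β⁻¹ β⁻ β⁺ x y H H'`: for `ζ` near `β⁻` the coordinate `p = Q ζ` of the leaf `U_ζ` near
`β⁺` and the forward coordinate `F ζ` have the same slow direction `e₂` at `β⁺`
(`slow`).
-/

open Set Filter Topology Metric InnerProductSpace
open scoped ContDiff RealInnerProductSpace Gradient

noncomputable section

namespace Vale.Agent.P207.N3.H975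

open H143

set_option linter.unusedSectionVars false

/-- the second unit vector -/
def e2 : E2 := EuclideanSpace.single 1 1

theorem e2_zero : e2 0 = 0 := by simp [e2]

theorem e2_one : e2 1 = 1 := by simp [e2]

theorem e2_ne : e2 ≠ 0 := by
  intro h
  have := congrArg (fun v : E2 => v 1) h
  simp [e2_one] at this

/-! ### The derivative of the return map of a half on the second axis -/

section Half

variable (H : Half)

theorem hasFDerivAt_tri_inv (μ₁ μ₂ a : ℝ) (j : ℕ) (p v : E2) :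
    (fderiv ℝ (H790.NF.tri μ₁ μ₂ a j).inv p v) 1 = μ₂⁻¹ * v 1 := by
  have h1 : DifferentiableAt ℝ (H790.NF.tri μ₁ μ₂ a j).inv p :=
    (H790.NF.contDiff_inv _).differentiable (by simp) p
  have h2 := (EuclideanSpace.proj (𝕜 := ℝ) (1 : Fin 2) : E2 →L[ℝ] ℝ).hasFDerivAt.comp p
    h1.hasFDerivAt
  have h3 : HasFDerivAt (fun x : E2 => μ₂⁻¹ * x 1)
      (μ₂⁻¹ • (EuclideanSpace.proj (𝕜 := ℝ) (1 : Fin 2) : E2 →L[ℝ] ℝ)) p :=
    (EuclideanSpace.proj (𝕜 := ℝ) (1 : Fin 2) : E2 →L[ℝ] ℝ).hasFDerivAt.const_mul μ₂⁻¹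
  have h4 := HasFDerivAt.unique h2 h3
  have h5 := congrArg (fun A : E2 →L[ℝ] ℝ => A v) h4
  simpa using h5

/-- `D_q a (0, p) e₂ = μ₂ e₂` and the derivative of `q ↦ a (q, ∇ S_y q)` at `0` -/
theorem half_slow {μ₁ μ₂ a' : ℝ} {j' : ℕ} (hμ : μ₂ ≠ 0) {y₀ : E2} (hy : y₀ ∈ ball (0 : E2) H.r)
    (hM : H.M =ᶠ[𝓝 y₀] (H790.NF.tri μ₁ μ₂ a' j').inv) :
    ∃ A : E2 →L[ℝ] E2, HasFDerivAt (fun p => H.a (p, ∇ (H.S y₀) p)) A 0 ∧ A e2 = μ₂ • e2 ∧
      Function.Injective A := by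
  have h0 : (0 : E2) ∈ ball (0 : E2) H.r := mem_ball_self H.r_pos
  have hz : ((0 : E2), y₀) ∈ ball (0 : E2) H.r ×ˢ ball (0 : E2) H.r := ⟨h0, hy⟩
  have hn : ball (0 : E2) H.r ×ˢ ball (0 : E2) H.r ∈ 𝓝 ((0 : E2), y₀) :=
    (isOpen_ball.prod isOpen_ball).mem_nhds hz
  have ha : HasFDerivAt H.a (fderiv ℝ H.a (0, y₀)) (0, y₀) :=
    ((H.a_smooth.contDiffAt hn).differentiableAt (by simp)).hasFDerivAt
  have hb : HasFDerivAt H.b (fderiv ℝ H.b (0, y₀)) (0, y₀) :=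
    ((H.b_smooth.contDiffAt hn).differentiableAt (by simp)).hasFDerivAt
  -- the vertical derivatives
  have hin : HasFDerivAt (fun p : E2 => ((0 : E2), p)) (ContinuousLinearMap.inr ℝ E2 E2) y₀ :=
    (hasFDerivAt_const (0 : E2) y₀).prodMk (hasFDerivAt_id y₀)
  have ha2 : ∀ v : E2, fderiv ℝ H.a (0, y₀) (0, v) = 0 := by
    intro v
    have h1 : HasFDerivAt (fun p : E2 => H.a (0, p))
        (fderiv ℝ H.a (0, y₀) ∘L ContinuousLinearMap.inr ℝ E2 E2) y₀ := ha.comp y₀ hin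
    have h2 : HasFDerivAt (fun p : E2 => H.a (0, p)) (0 : E2 →L[ℝ] E2) y₀ := by
      refine (hasFDerivAt_const (0 : E2) y₀).congr_of_eventuallyEq ?_
      filter_upwards [isOpen_ball.mem_nhds hy] with p hp using H.a_zero p hp
    have h3 := congrArg (fun A : E2 →L[ℝ] E2 => A v) (h1.unique h2)
    simpa using h3
  have hb2 : ∀ v : E2, (fderiv ℝ H.b (0, y₀) (0, v)) 1 = μ₂⁻¹ * v 1 := by
    intro v
    have h1 : HasFDerivAt (fun p : E2 => H.b (0, p))
        (fderiv ℝ H.b (0, y₀) ∘L ContinuousLinearMap.inr ℝ E2 E2) y₀ := hb.comp y₀ hin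
    have h2 : (fun p : E2 => H.b (0, p)) =ᶠ[𝓝 y₀] (H790.NF.tri μ₁ μ₂ a' j').inv := by
      filter_upwards [isOpen_ball.mem_nhds hy, hM] with p hp hp2
      rw [H.b_axis p hp, hp2]
    have h3 := h2.fderiv_eq (𝕜 := ℝ)
    rw [h1.fderiv] at h3
    have h4 := congrArg (fun A : E2 →L[ℝ] E2 => (A v) 1) h3
    simp only [hasFDerivAt_tri_inv] at h4
    simpa using h4
  -- the composition
  have hg : HasFDerivAt (∇ (H.S y₀)) (fderiv ℝ (∇ (H.S y₀)) 0) 0 :=
    ((smoothAt_grad H hy h0).differentiableAt (by simp)).hasFDerivAt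
  have hpair : HasFDerivAt (fun p : E2 => (p, ∇ (H.S y₀) p))
      ((ContinuousLinearMap.id ℝ E2).prod (fderiv ℝ (∇ (H.S y₀)) 0)) 0 :=
    (hasFDerivAt_id (0 : E2)).prodMk hg
  have hval : (fun p : E2 => (p, ∇ (H.S y₀) p)) 0 = (0, y₀) := by
    simp [H.S_grad y₀ hy]
  have ha' : HasFDerivAt H.a (fderiv ℝ H.a (0, y₀)) ((fun p : E2 => (p, ∇ (H.S y₀) p)) 0) := by
    rw [hval]; exact ha
  suffices hgoal : (fderiv ℝ H.a (0, y₀) ∘L
      (ContinuousLinearMap.id ℝ E2).prod (fderiv ℝ (∇ (H.S y₀)) 0)) e2 = μ₂ • e2 ∧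
      Function.Injective (fderiv ℝ H.a (0, y₀) ∘L
      (ContinuousLinearMap.id ℝ E2).prod (fderiv ℝ (∇ (H.S y₀)) 0)) from
    ⟨_, ha'.comp 0 hpair, hgoal⟩
  set A1 : E2 →L[ℝ] E2 := fderiv ℝ H.a (0, y₀) ∘L ContinuousLinearMap.inl ℝ E2 E2 with hA1
  set B2 : E2 →L[ℝ] E2 := fderiv ℝ H.b (0, y₀) ∘L ContinuousLinearMap.inr ℝ E2 E2 with hB2
  have hB2v : ∀ v, (B2 v) 1 = μ₂⁻¹ * v 1 := by
    intro v
    have := hb2 v
    simpa [hB2] using this
  have hsymp : ∀ u v : E2, ⟪A1 u, B2 v⟫ = ⟪u, v⟫ := by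
    intro u v
    have h1 := H.symp (0, y₀) hz (u, 0) (0, v)
    rw [ha2 v] at h1
    simp only [inner_zero_right, sub_zero] at h1
    simpa [hA1, hB2] using h1
  have e1 : (fderiv ℝ H.a (0, y₀) ∘L
      (ContinuousLinearMap.id ℝ E2).prod (fderiv ℝ (∇ (H.S y₀)) 0)) = A1 := by
    ext1 v
    have h1 : (ContinuousLinearMap.id ℝ E2).prod (fderiv ℝ (∇ (H.S y₀)) 0) v
        = (v, (0 : E2)) + (0, fderiv ℝ (∇ (H.S y₀)) 0 v) := by simp
    rw [ContinuousLinearMap.comp_apply, h1, map_add, ha2, add_zero]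
    simp [hA1]
  rw [e1]
  have hAinj : Function.Injective A1 := by
    intro v w hvw
    have h2 : ⟪v - w, v - w⟫ = 0 := by
      rw [← hsymp (v - w) (v - w), map_sub, hvw, sub_self, inner_zero_left]
    rw [inner_self_eq_zero] at h2
    exact sub_eq_zero.mp h2
  refine ⟨?_, hAinj⟩
  have hinj : Function.Injective B2 := by
    intro v w hvw
    have h1 : ∀ u, ⟪u, v - w⟫ = 0 := by
      intro u
      rw [← hsymp u (v - w), map_sub, hvw, sub_self, inner_zero_right]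
    have h2 := h1 (v - w)
    rw [inner_self_eq_zero] at h2
    exact sub_eq_zero.mp h2
  have hsurj : Function.Surjective B2 :=
    (LinearMap.injective_iff_surjective (f := (B2 : E2 →ₗ[ℝ] E2))).mp hinj
  have h1 : ∀ w, ⟪A1 e2 - μ₂ • e2, w⟫ = 0 := by
    intro w
    obtain ⟨v, rfl⟩ := hsurj w
    rw [inner_sub_left, hsymp, inner_smul_left]
    have i1 : ⟪e2, v⟫ = v 1 := by
      rw [real_inner_comm]
      exact (coord_eq v 1).symm
    have i2 : ⟪e2, B2 v⟫ = μ₂⁻¹ * v 1 := by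
      rw [← hB2v v, real_inner_comm]
      exact (coord_eq (B2 v) 1).symm
    rw [i1, i2]
    simp only [conj_trivial]
    field_simp
    ring
  have h2 := h1 (A1 e2 - μ₂ • e2)
  rw [inner_self_eq_zero] at h2
  exact sub_eq_zero.mp h2

end Half

/-! ### Dynamics -/

section Dyn

variable {Γ X B : Type} [Group Γ] [MetricSpace X] [ProperSpace X] [MulAction Γ X]
  [IsIsometricSMul Γ X] [TopologicalSpace B] [CompactSpace B] [T2Space B] [MulAction Γ B]
  [ContinuousConstSMul Γ B] {L : Leaf Γ X B} {T : Tens L}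

/-- near `β⁻` all backward images stay near `β⁻` -/
theorem south_all (o : Orb L) {U : Set B} (hU : U ∈ 𝓝 o.neg) :
    ∀ᶠ ζ in 𝓝 o.neg, ∀ m : ℕ, (o.β ^ m)⁻¹ • ζ ∈ U := by
  have hn : ({o.pos}ᶜ : Set B) ∈ 𝓝 o.neg := isOpen_compl_singleton.mem_nhds o.neg_ne_pos
  obtain ⟨K, hK, hKc, hKs⟩ := exists_mem_nhds_isClosed_subset hn
  have hs := H147.Ax.south o.ax hKc.isCompact (fun h => hKs h rfl) hU
  obtain ⟨m₀, hm₀⟩ := eventually_atTop.mp hs
  have hf : ∀ᶠ ζ in 𝓝 o.neg, ∀ m ∈ Finset.range m₀, (o.β ^ m)⁻¹ • ζ ∈ U := by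
    rw [Finset.eventually_all]
    intro m _
    have h1 : Tendsto (fun ζ : B => (o.β ^ m)⁻¹ • ζ) (𝓝 o.neg) (𝓝 o.neg) := by
      have h2 := (continuous_const_smul ((o.β ^ m)⁻¹)).tendsto o.neg
      have h3 : (o.β ^ m)⁻¹ • o.neg = o.neg := H147.Ax.inv_pow_smul_em o.ax m
      rwa [h3] at h2
    exact h1 hU
  filter_upwards [hK, hf] with ζ h1 h2 m
  rcases lt_or_ge m m₀ with h | h
  · exact h2 m (Finset.mem_range.mpr h)
  · exact hm₀ m h ζ h1

theorem isOpen_ne : IsOpen {p : B × X | p.1 ≠ L.ep p.2} := by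
  have h1 : Continuous fun p : B × X => L.ep p.2 := (H147.ep_cont L).comp continuous_snd
  exact isOpen_ne_fun continuous_fst h1

/-- the point `(β⁻, β⁺)` goes over to `0` on all leaves near that of `β⁻` -/
theorem Q_pos_zero {o : Orb L} {g : Γ} {x y : B → E2} {H H' : Half}
    (S : Side T g o.neg o.pos x y H H') (hx0 : x o.pos = 0) (hy0 : y o.neg = 0)
    (hyc : ContinuousAt y o.neg) : ∀ᶠ ζ in 𝓝 o.neg, S.Q ζ o.pos = 0 := by
  have hps := S.pt
  rw [nhds_prod_eq, Filter.eventually_prod_iff] at hps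
  obtain ⟨pa, hpa, pb, hpb, hpt⟩ := hps
  have hsmall : ∀ᶠ ζ in 𝓝 o.neg, ∇ (H.S (y ζ)) (S.Q ζ o.pos) ∈ ball (0 : E2) H'.r := by
    have h1 : ContinuousAt (fun ζ => (y ζ, S.Q ζ o.pos)) o.neg := by
      refine hyc.prodMk ?_
      exact ContinuousAt.comp (f := fun ζ : B => (ζ, o.pos)) (g := fun z : B × B => S.Q z.1 z.2)
        S.cont (by fun_prop)
    have h2 := h1.tendsto
    simp only [hy0, S.zero] at h2
    have h3 := h2.eventually (grad_small H (mem_ball_self H.r_pos) H'.r_pos)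
    filter_upwards [h3] with ζ h4
    simpa using h4
  filter_upwards [hpa, hsmall] with ζ h1 h2
  have h3 := hpt h1 hpb.self_of_nhds
  simp only [hx0] at h3
  rw [h3]
  exact grad_zero H' h2

/-- everything which is needed on one leaf -/
structure Good {o : Orb L} {x y : B → E2} {H H' : Half}
    (S : Side T o.β⁻¹ o.neg o.pos x y H H') (N : H790.NF) (ζ : B) : Prop where
  ne : ζ ≠ o.pos
  mem : y ζ ∈ ball (0 : E2) H.r
  hM : H.M =ᶠ[𝓝 (y ζ)] N.inv
  zero : S.Q ζ o.pos = 0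
  smooth : ∀ f : X, L.em f = ζ → L.ep f = o.pos →
    ContDiffAt ℝ ∞ (PP S ζ f) 0 ∧ (fderiv ℝ (PP S ζ f) 0).det ≠ 0
  dyn : ∀ᶠ η in 𝓝 o.pos, S.Q (o.β⁻¹ • ζ) (o.β⁻¹ • η) =
    H.a (S.Q ζ η, ∇ (H.S (y ζ)) (S.Q ζ η))

theorem good_eventually {o : Orb L} {x y : B → E2} {H H' : Half}
    (S : Side T o.β⁻¹ o.neg o.pos x y H H') (hx0 : x o.pos = 0) (hy0 : y o.neg = 0)
    (hyc : ContinuousAt y o.neg) {N : H790.NF} (hM : ∀ᶠ p in 𝓝 (0 : E2), H.M p = N.inv p) :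
    ∀ᶠ ζ in 𝓝 o.neg, Good S N ζ := by
  have h1 : ∀ᶠ ζ in 𝓝 o.neg, ζ ≠ o.pos := isOpen_compl_singleton.mem_nhds o.neg_ne_pos
  have hyt : Tendsto y (𝓝 o.neg) (𝓝 0) := by
    have := hyc.tendsto
    rwa [hy0] at this
  have h2 : ∀ᶠ ζ in 𝓝 o.neg, y ζ ∈ ball (0 : E2) H.r :=
    hyt.eventually (isOpen_ball.mem_nhds (mem_ball_self H.r_pos))
  have h3 : ∀ᶠ ζ in 𝓝 o.neg, H.M =ᶠ[𝓝 (y ζ)] N.inv := hyt.eventually hM.eventually_nhds
  have h4 := Q_pos_zero S hx0 hy0 hyc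
  have h5 := S.smooth
  rw [nhds_prod_eq, Filter.eventually_prod_iff] at h5
  obtain ⟨sa, hsa, sb, hsb, hsm⟩ := h5
  have h6 := S.dyn
  rw [nhds_prod_eq, Filter.eventually_prod_iff] at h6
  obtain ⟨da, hda, db, hdb, hd⟩ := h6
  filter_upwards [h1, h2, h3, h4, hsa, hda] with ζ g1 g2 g3 g4 g5 g6
  refine ⟨g1, g2, g3, g4, fun f hf hf' => ?_, ?_⟩
  · obtain ⟨k1, k2, -⟩ := hsm g5 hsb.self_of_nhds f hf 0 (mem_ball_self (by norm_num))
      (by rw [L.e_zero, hf'])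
    exact ⟨k1, k2⟩
  · filter_upwards [hdb] with η hη using hd g6 hη

/-- one step of the dynamics -/
theorem good_step {o : Orb L} {x y : B → E2} {H H' : Half}
    {S : Side T o.β⁻¹ o.neg o.pos x y H H'} {μ₁ μ₂ a' : ℝ} {j' : ℕ} (hμ : μ₂ ≠ 0) {ζ : B}
    (hg : Good S (.tri μ₁ μ₂ a' j') ζ) {f f' : X} (hf : L.em f = ζ) (hf' : L.em f' = o.β⁻¹ • ζ)
    (hp : L.ep f = o.pos) (hp' : L.ep f' = o.pos) {w : E2}
    (hw : fderiv ℝ (PP S (o.β⁻¹ • ζ) f') 0 w = e2) :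
    fderiv ℝ (PP S ζ f) 0 (fderiv ℝ (L.τ (o.β • f') f) 0 w) = μ₂⁻¹ • e2 := by
  obtain ⟨A, hA, hA2, hAi⟩ := half_slow H hμ hg.mem hg.hM
  have h3 : (0 : E2) ∈ ball (0 : E2) 3 := mem_ball_self (by norm_num)
  have hem : L.em (o.β • f') = L.em f := by rw [L.em_smul, hf', smul_inv_smul, hf]
  have he0 : L.e (o.β • f') 0 = L.e f 0 := by
    rw [L.e_zero, L.e_zero, H147.ep_smul, hp', hp, o.smul_pos]
  have hdm : (0 : E2) ∈ L.dm (o.β • f') f := H646.mem_dm_of L h3 h3 he0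
  have hτ := H646.tau_hasFDerivAt L hem hdm
  have hτ0 : L.τ (o.β • f') f 0 = 0 := H646.tau_of L (H646.ball_sub h3) he0
  obtain ⟨hs, -⟩ := hg.smooth f hf hp
  have hP : HasFDerivAt (PP S ζ f) (fderiv ℝ (PP S ζ f) 0) 0 :=
    (hs.differentiableAt (by simp)).hasFDerivAt
  have hP0 : PP S ζ f 0 = 0 := by
    unfold PP
    rw [L.e_zero, hp, hg.zero]
  have hP' : HasFDerivAt (PP S ζ f) (fderiv ℝ (PP S ζ f) 0) (L.τ (o.β • f') f 0) := by
    rw [hτ0]; exact hP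
  have hc1 : HasFDerivAt (fun u => PP S ζ f (L.τ (o.β • f') f u))
      (fderiv ℝ (PP S ζ f) 0 ∘L fderiv ℝ (L.τ (o.β • f') f) 0) 0 := hP'.comp 0 hτ
  have hA' : HasFDerivAt (fun p => H.a (p, ∇ (H.S (y ζ)) p)) A
      ((fun u => PP S ζ f (L.τ (o.β • f') f u)) 0) := by
    simp only [hτ0, hP0]
    exact hA
  have hc2 := hA'.comp 0 hc1
  have heq : PP S (o.β⁻¹ • ζ) f' =ᶠ[𝓝 0]
      (fun p => H.a (p, ∇ (H.S (y ζ)) p)) ∘ fun u => PP S ζ f (L.τ (o.β • f') f u) := by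
    have t1 : Tendsto (fun u => o.β • L.e f' u) (𝓝 0) (𝓝 o.pos) := by
      have c1 : ContinuousAt (L.e f') 0 :=
        ((L.e_cont_x f').mono ball_subset_closedBall).continuousAt (isOpen_ball.mem_nhds h3)
      have c2 := c1.tendsto
      rw [L.e_zero, hp'] at c2
      have c3 := ((continuous_const_smul o.β).tendsto o.pos).comp c2
      rw [o.smul_pos] at c3
      exact c3
    filter_upwards [t1.eventually hg.dyn, (H646.isOpen_dm L (o.β • f') f).mem_nhds hdm]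
      with u hu hu2
    have e1 : L.e f (L.τ (o.β • f') f u) = o.β • L.e f' u := by
      rw [H646.e_tau L hu2, L.e_smul o.β f' u (H646.ball_sub hu2.1)]
    rw [inv_smul_smul] at hu
    simp only [PP, Function.comp_apply, e1]
    exact hu
  have h4 := (hc2.congr_of_eventuallyEq heq).fderiv
  rw [h4] at hw
  apply hAi
  rw [map_smul, hA2, smul_smul, inv_mul_cancel₀ hμ, one_smul]
  exact hw

/-- a linear map of the plane with nonzero determinant is bijective -/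
theorem bij_of_det {A : E2 →L[ℝ] E2} (h : A.det ≠ 0) : Function.Bijective A := by
  have h1 : (A.toContinuousLinearEquivOfDetNeZero h : E2 → E2) = A := by
    ext v
    simp
  rw [← h1]
  exact (A.toContinuousLinearEquivOfDetNeZero h).bijective

/-- solutions of `A w = e₂` are bounded near an invertible `A₀` -/
theorem bounded_of_tendsto {A : ℕ → E2 →L[ℝ] E2} {A₀ : E2 →L[ℝ] E2}
    (hA : Tendsto A atTop (𝓝 A₀)) (hdet : A₀.det ≠ 0) {w : ℕ → E2} (hw : ∀ m, A m (w m) = e2) :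
    ∃ C, ∀ᶠ m in atTop, ‖w m‖ ≤ C := by
  set E := A₀.toContinuousLinearEquivOfDetNeZero hdet with hE
  have hEA : ∀ v, E v = A₀ v := by
    intro v
    simp [hE]
  set κ : ℝ := ‖(E.symm : E2 →L[ℝ] E2)‖ + 1 with hκ
  have hκ0 : 0 < κ := by positivity
  have hκv : ∀ v : E2, ‖v‖ ≤ κ * ‖A₀ v‖ := by
    intro v
    have h1 : v = (E.symm : E2 →L[ℝ] E2) (A₀ v) := by
      rw [← hEA]
      simp
    calc ‖v‖ = ‖(E.symm : E2 →L[ℝ] E2) (A₀ v)‖ := by rw [← h1]
      _ ≤ ‖(E.symm : E2 →L[ℝ] E2)‖ * ‖A₀ v‖ := ContinuousLinearMap.le_opNorm _ _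
      _ ≤ κ * ‖A₀ v‖ := by
        gcongr
        rw [hκ]
        linarith
  have hε : (0:ℝ) < 1 / (2 * κ) := by positivity
  have h1 : ∀ᶠ m in atTop, ‖A m - A₀‖ < 1 / (2 * κ) := by
    have h2 := tendsto_iff_norm_sub_tendsto_zero.mp hA
    exact h2.eventually (gt_mem_nhds hε)
  refine ⟨2 * κ * ‖e2‖, ?_⟩
  filter_upwards [h1] with m hm
  have h3 : A₀ (w m) = e2 - (A m - A₀) (w m) := by
    rw [sub_apply, hw m]
    abel
  have h4 := hκv (w m)
  have h5 : ‖A₀ (w m)‖ ≤ ‖e2‖ + 1 / (2 * κ) * ‖w m‖ := by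
    rw [h3]
    refine (norm_sub_le _ _).trans ?_
    gcongr
    exact (ContinuousLinearMap.le_opNorm _ _).trans (by gcongr)
  have h6 : ‖w m‖ ≤ κ * (‖e2‖ + 1 / (2 * κ) * ‖w m‖) := h4.trans (by gcongr)
  have h7 : κ * (‖e2‖ + 1 / (2 * κ) * ‖w m‖) = κ * ‖e2‖ + 1 / 2 * ‖w m‖ := by
    field_simp
  linarith

/-- the derivative of the normal form at `0`: first coordinate -/
theorem fn_deriv {μ₁ μ₂ a : ℝ} {j : ℕ} (hok : (H790.NF.tri μ₁ μ₂ a j).OK) (h12 : |μ₂| < |μ₁|)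
    (v : E2) : (fderiv ℝ (H790.NF.tri μ₁ μ₂ a j).fn 0 v) 0 = μ₁ * v 0 := by
  have h1 : DifferentiableAt ℝ (H790.NF.tri μ₁ μ₂ a j).fn 0 :=
    (H790.NF.contDiff_fn _).differentiable (by simp) 0
  have h2 := (EuclideanSpace.proj (𝕜 := ℝ) (0 : Fin 2) : E2 →L[ℝ] ℝ).hasFDerivAt.comp 0
    h1.hasFDerivAt
  have h3 : HasFDerivAt (fun x : E2 => μ₁ * x 0 + a * x 1 ^ j)
      (μ₁ • (EuclideanSpace.proj (𝕜 := ℝ) (0 : Fin 2) : E2 →L[ℝ] ℝ)) 0 := by
    have g1 : HasFDerivAt (fun x : E2 => μ₁ * x 0)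
        (μ₁ • (EuclideanSpace.proj (𝕜 := ℝ) (0 : Fin 2) : E2 →L[ℝ] ℝ)) 0 :=
      (EuclideanSpace.proj (𝕜 := ℝ) (0 : Fin 2) : E2 →L[ℝ] ℝ).hasFDerivAt.const_mul μ₁
    rcases eq_or_ne a 0 with ha | ha
    · subst ha
      refine g1.congr_of_eventuallyEq (Eventually.of_forall fun x => ?_)
      simp
    · obtain ⟨hj, hμ⟩ := hok.2.2 ha
      have hj2 : 2 ≤ j := by
        rcases Nat.lt_or_ge j 2 with h | h
        · have : j = 1 := by omega
          subst this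
          rw [hμ, pow_one] at h12
          exact absurd h12 (lt_irrefl _)
        · exact h
      have g2 : HasFDerivAt (fun x : E2 => a * x 1 ^ j) (0 : E2 →L[ℝ] ℝ) 0 := by
        have g3 := ((EuclideanSpace.proj (𝕜 := ℝ) (1 : Fin 2) : E2 →L[ℝ] ℝ).hasFDerivAt
          (x := (0 : E2))).pow j
        have g4 := g3.const_mul a
        have hj1 : j - 1 ≠ 0 := by omega
        simpa [hj1] using g4
      have := g1.add g2
      rw [add_zero] at this
      exact this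
  have h4 := HasFDerivAt.unique h2 h3
  have h5 := congrArg (fun A : E2 →L[ℝ] ℝ => A v) h4
  simpa using h5

/-- **The slow direction.** -/
theorem slow {o : Orb L} {n : Nor L o} {μ₁ μ₂ a a' : ℝ} {j j' : ℕ} (hn : n.N = .tri μ₁ μ₂ a j)
    (h12 : |μ₂| < |μ₁|) {c : ℝ} (hc : 0 < c) (W : H147.Fwd o n.x n.N.fn c) {x y : B → E2}
    {H H' : Half} (S : Side T o.β⁻¹ o.neg o.pos x y H H') (hx0 : x o.pos = 0)
    (hy0 : y o.neg = 0) (hyc : ContinuousAt y o.neg)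
    (hM : ∀ᶠ p in 𝓝 (0 : E2), H.M p = (H790.NF.tri μ₁ μ₂ a' j').inv p) :
    ∀ᶠ ζ in 𝓝 o.neg, ∃ s : ℝ, s ≠ 0 ∧ ∀ w : E2,
      fderiv ℝ (PP S ζ (L.hol ζ o.x)) 0 w = EuclideanSpace.single 1 1 →
      fderiv ℝ (fun u => W.F ζ (L.e (L.hol ζ o.x) u)) 0 w = s • EuclideanSpace.single 1 1 := by
  have hok : (H790.NF.tri μ₁ μ₂ a j).OK := by
    rw [← hn]; exact n.ok
  have hμ₁ : μ₁ ≠ 0 := (H790.NF.ne_of_OK hok).1
  have hμ₂ : μ₂ ≠ 0 := (H790.NF.ne_of_OK hok).2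
  have hgood := good_eventually S hx0 hy0 hyc hM
  have hall := south_all o hgood
  filter_upwards [hall] with ζ hζ
  have h3 : (0 : E2) ∈ ball (0 : E2) 3 := mem_ball_self (by norm_num)
  -- the leaves and the frames
  set Z : ℕ → B := fun m => (o.β ^ m)⁻¹ • ζ with hZ
  set f : ℕ → X := fun m => L.hol (Z m) o.x with hf
  have hZ0 : Z 0 = ζ := by simp [hZ]
  have hZs : ∀ m, Z (m + 1) = o.β⁻¹ • Z m := by
    intro m
    simp only [hZ, pow_succ, mul_inv_rev, mul_smul]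
  have hgd : ∀ m, Good S (.tri μ₁ μ₂ a' j') (Z m) := hζ
  have hem : ∀ m, L.em (f m) = Z m := fun m => L.hol_em _ _ (hgd m).ne
  have hep : ∀ m, L.ep (f m) = o.pos := fun m => L.hol_ep _ _ (hgd m).ne
  set G : ℕ → E2 →L[ℝ] E2 := fun m => fderiv ℝ (PP S (Z m) (f m)) 0 with hG
  have hGd : ∀ m, (G m).det ≠ 0 := fun m => ((hgd m).smooth (f m) (hem m) (hep m)).2
  choose w hw using fun m => (bij_of_det (hGd m)).2 e2
  -- one step
  set R : ℕ → E2 →L[ℝ] E2 := fun m => fderiv ℝ (L.τ (o.β • f (m + 1)) (f m)) 0 with hR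
  have hstep : ∀ m, R m (w (m + 1)) = μ₂⁻¹ • w m := by
    intro m
    have h1 := good_step hμ₂ (hgd m) (hem m) (f' := f (m + 1)) (by rw [hem, hZs]) (hep m)
      (hep (m + 1)) (w := w (m + 1)) (by rw [← hZs]; exact hw (m + 1))
    apply (bij_of_det (hGd m)).1
    rw [map_smul, hw m]
    exact h1
  have hdm : ∀ m, (0 : E2) ∈ L.dm (o.β • f (m + 1)) (f m) := by
    intro m
    refine H646.mem_dm_of L h3 h3 ?_
    rw [L.e_zero, L.e_zero, H147.ep_smul, hep, hep, o.smul_pos]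
  have hτ0 : ∀ m, L.τ (o.β • f (m + 1)) (f m) 0 = 0 := by
    intro m
    refine H646.tau_of L (H646.ball_sub h3) ?_
    rw [L.e_zero, L.e_zero, H147.ep_smul, hep, hep, o.smul_pos]
  -- the forward coordinate
  have hne : ζ ≠ o.pos := by
    have := (hgd 0).ne
    rwa [hZ0] at this
  have hF0 : W.F ζ o.pos = 0 := W.base ζ hne
  have hf0 : f 0 = L.hol ζ o.x := by simp only [hf, hZ0]
  have hE : ∀ m, ∃ E : E2 →L[ℝ] E2,
      HasFDerivAt (fun u => W.F ζ (o.β ^ m • L.e (f m) u)) E 0 ∧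
      E (w m) = (μ₂⁻¹) ^ m • fderiv ℝ (fun u => W.F ζ (L.e (L.hol ζ o.x) u)) 0 (w 0) := by
    intro m
    induction m with
    | zero =>
      refine ⟨fderiv ℝ (fun u => W.F ζ (L.e (L.hol ζ o.x) u)) 0, ?_, by simp⟩
      have h1 : DifferentiableAt ℝ (fun u => W.F ζ (L.e (L.hol ζ o.x) u)) 0 :=
        ((W.smooth ζ hne).contDiffAt (isOpen_ball.mem_nhds
          (mem_ball_self one_pos))).differentiableAt (by simp)
      have h2 : (fun u => W.F ζ (o.β ^ 0 • L.e (f 0) u)) =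
          fun u => W.F ζ (L.e (L.hol ζ o.x) u) := by
        funext u
        rw [pow_zero, one_smul, hf0]
      rw [h2]
      exact h1.hasFDerivAt
    | succ m ih =>
      obtain ⟨E, hE1, hE2⟩ := ih
      have hτ := H646.tau_hasFDerivAt L (x := o.β • f (m + 1)) (y := f m)
        (by rw [L.em_smul, hem, hem, hZs, smul_inv_smul]) (hdm m)
      have hE1' : HasFDerivAt (fun u => W.F ζ (o.β ^ m • L.e (f m) u)) E
          (L.τ (o.β • f (m + 1)) (f m) 0) := by rw [hτ0 m]; exact hE1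
      refine ⟨E ∘L R m, ?_, ?_⟩
      · refine (hE1'.comp 0 hτ).congr_of_eventuallyEq ?_
        filter_upwards [(H646.isOpen_dm L _ _).mem_nhds (hdm m)] with u hu
        have e1 : L.e (f m) (L.τ (o.β • f (m + 1)) (f m) u) = o.β • L.e (f (m + 1)) u := by
          rw [H646.e_tau L hu, L.e_smul o.β _ u (H646.ball_sub hu.1)]
        simp only [Function.comp_apply, e1]
        rw [pow_succ, mul_smul]
      · rw [ContinuousLinearMap.comp_apply, hstep, map_smul, hE2, smul_smul, ← pow_succ']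
  choose E hE1 hE2 using hE
  -- the limit of the frames
  have hZl : Tendsto Z atTop (𝓝 o.neg) := by
    intro V hV
    have h1 := H147.Ax.south o.ax (K := {ζ}) isCompact_singleton
      (fun h => hne (mem_singleton_iff.mp h).symm) hV
    have h2 : ∀ᶠ m in atTop, Z m ∈ V := by
      filter_upwards [h1] with m hm using hm ζ rfl
    exact h2
  have hfl : Tendsto f atTop (𝓝 o.x) := by
    have h1 : ContinuousAt (fun p : B × X => L.hol p.1 p.2) (o.neg, o.x) :=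
      L.hol_cont.continuousAt (isOpen_ne.mem_nhds (by
        show o.neg ≠ L.ep o.x
        exact o.neg_ne_pos))
    have h2 : Tendsto (fun m => (Z m, o.x)) atTop (𝓝 (o.neg, o.x)) :=
      hZl.prodMk_nhds tendsto_const_nhds
    have h4 := h1.tendsto.comp h2
    have h5 : L.hol o.neg o.x = o.x := L.hol_self o.x
    simp only [h5] at h4
    exact h4
  have hGl : Tendsto G atTop (𝓝 (fderiv ℝ (fun u => S.Q (L.em o.x) (L.e o.x u)) 0)) := by
    have h1 := ((S.dcont o.x rfl rfl).tendsto).comp hfl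
    refine h1.congr fun m => ?_
    simp only [Function.comp_apply, hG, hem]
    rfl
  have hGdet : (fderiv ℝ (fun u => S.Q (L.em o.x) (L.e o.x u)) 0).det ≠ 0 := by
    have h1 := S.smooth.self_of_nhds o.x rfl 0 h3 (by rw [L.e_zero]; rfl)
    exact h1.2.1
  obtain ⟨Cw, hCw⟩ := bounded_of_tendsto hGl hGdet hw
  -- the convergence of the forward coordinates
  obtain ⟨C, hC⟩ := W.conv {ζ} isCompact_singleton (fun h => hne (mem_singleton_iff.mp h).symm)
    {o.x} isCompact_singleton (by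
      intro z hz
      rw [mem_singleton_iff.mp hz]
      rfl) 1
  set D0 : E2 →L[ℝ] E2 := fderiv ℝ (fun u => n.x (L.e o.x u)) 0 with hD0
  set v : E2 := fderiv ℝ (fun u => W.F ζ (L.e (L.hol ζ o.x) u)) 0 (w 0) with hv
  have hNd : HasFDerivAt n.N.fn (fderiv ℝ n.N.fn 0) 0 :=
    ((H790.NF.contDiff_fn _).differentiable (by simp) 0).hasFDerivAt
  have hN0 : n.N.fn 0 = 0 := H790.NF.fn_zero n.ok
  have hpow : ∀ m (u : E2), (((fderiv ℝ n.N.fn 0) ^ m) u) 0 = μ₁ ^ m * u 0 := by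
    intro m
    induction m with
    | zero => intro u; simp
    | succ m ih =>
      intro u
      rw [pow_succ, mul_apply_eq_comp, ih, hn, fn_deriv hok h12]
      ring
  have hbd : ∀ᶠ m : ℕ in atTop, |(μ₁ / μ₂) ^ m * v 0| ≤ (‖D0‖ + |C|) * Cw := by
    filter_upwards [hC, hCw] with m hm hm2
    obtain ⟨-, -, -, h4⟩ := hm ζ rfl o.x rfl
    have h5 := h4 0 (mem_closedBall_self (by norm_num))
    have h6 : HasFDerivAt (fun u => n.N.fn^[m] (W.F ζ (o.β ^ m • L.e (f m) u)))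
        (((fderiv ℝ n.N.fn 0) ^ m) ∘L E m) 0 := by
      have e1 : W.F ζ (o.β ^ m • L.e (f m) 0) = 0 := by
        have e0 : o.β ^ m • o.pos = o.pos := H147.Ax.pow_smul_ep o.ax m
        rw [L.e_zero, hep, e0]
        exact hF0
      have g1 : HasFDerivAt (n.N.fn^[m]) ((fderiv ℝ n.N.fn 0) ^ m)
          (W.F ζ (o.β ^ m • L.e (f m) 0)) := by
        rw [e1]
        exact HasFDerivAt.iterate hNd hN0 m
      exact HasFDerivAt.comp (f := fun u => W.F ζ (o.β ^ m • L.e (f m) u)) 0 g1 (hE1 m)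
    have h7 : (((fderiv ℝ n.N.fn 0) ^ m) (E m (w m))) 0 = (μ₁ / μ₂) ^ m * v 0 := by
      rw [hpow, hE2]
      simp only [PiLp.smul_apply, smul_eq_mul, div_eq_mul_inv, mul_pow]
      ring
    rw [← h7]
    have h8 : ‖((fderiv ℝ n.N.fn 0) ^ m) (E m (w m)) - D0 (w m)‖
        ≤ C * Real.exp (-c * o.l * m) * ‖w m‖ := by
      have e1 : ((fderiv ℝ n.N.fn 0) ^ m) (E m (w m)) =
          fderiv ℝ (fun u => n.N.fn^[m] (W.F ζ (o.β ^ m • L.e (f m) u))) 0 (w m) := by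
        rw [h6.fderiv]
        rfl
      rw [e1]
      have e2' : fderiv ℝ (fun u => n.N.fn^[m] (W.F ζ (o.β ^ m • L.e (f m) u))) 0 (w m)
            - D0 (w m)
          = (iteratedFDeriv ℝ 1
              (fun u => n.N.fn^[m] (W.F ζ (o.β ^ m • L.e (f m) u))) 0
            - iteratedFDeriv ℝ 1 (fun u => n.x (L.e o.x u)) 0) ![w m] := by
        rw [sub_apply, iteratedFDeriv_one_apply,
          iteratedFDeriv_one_apply]
        simp [hD0]
      rw [e2']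
      refine (ContinuousMultilinearMap.le_opNorm _ _).trans ?_
      simp only [Finset.univ_unique, Fin.default_eq_zero, Fin.isValue, Finset.prod_singleton,
        Matrix.cons_val_fin_one]
      gcongr
    have hexp : Real.exp (-c * o.l * m) ≤ 1 := by
      rw [Real.exp_le_one_iff]
      have := o.ax.pos
      have : 0 ≤ c * o.l * m := by positivity
      linarith
    calc |(((fderiv ℝ n.N.fn 0) ^ m) (E m (w m))) 0|
        ≤ ‖((fderiv ℝ n.N.fn 0) ^ m) (E m (w m))‖ :=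
          PiLp.norm_apply_le (((fderiv ℝ n.N.fn 0) ^ m) (E m (w m))) (0 : Fin 2)
      _ ≤ ‖D0 (w m)‖ + ‖((fderiv ℝ n.N.fn 0) ^ m) (E m (w m)) - D0 (w m)‖ := by
          have := norm_add_le (D0 (w m)) (((fderiv ℝ n.N.fn 0) ^ m) (E m (w m)) - D0 (w m))
          rwa [add_sub_cancel] at this
      _ ≤ ‖D0‖ * ‖w m‖ + |C| * 1 * ‖w m‖ := by
          gcongr
          · exact ContinuousLinearMap.le_opNorm _ _
          · refine h8.trans ?_
            gcongr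
            exact le_abs_self C
      _ = (‖D0‖ + |C|) * ‖w m‖ := by ring
      _ ≤ (‖D0‖ + |C|) * Cw := by gcongr
  -- conclusion
  have hv0 : v 0 = 0 := by
    by_contra hne0
    have h1 : 1 < |μ₁ / μ₂| := by
      rw [abs_div, one_lt_div (abs_pos.mpr hμ₂)]
      exact h12
    have h2 : Tendsto (fun m : ℕ => |μ₁ / μ₂| ^ m * |v 0|) atTop atTop :=
      (tendsto_pow_atTop_atTop_of_one_lt h1).atTop_mul_const (abs_pos.mpr hne0)
    obtain ⟨m, hm1, hm2⟩ := (hbd.and (h2.eventually (eventually_gt_atTop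
      ((‖D0‖ + |C|) * Cw)))).exists
    rw [abs_mul, abs_pow] at hm1
    linarith
  have hvne : v ≠ 0 := by
    intro h
    have h1 : w 0 = 0 := by
      apply (bij_of_det (W.deriv ζ hne)).1
      rw [map_zero]
      exact h
    have h2 := hw 0
    rw [h1, map_zero] at h2
    exact e2_ne h2.symm
  refine ⟨v 1, fun h => hvne (H790.NF.ext2 hv0 h), fun w' hw' => ?_⟩
  have hww : w' = w 0 := by
    have h1 : G 0 w' = G 0 (w 0) := by
      rw [hw 0]
      simp only [hG, hf0, hZ0]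
      exact hw'
    exact (bij_of_det (hGd 0)).1 h1
  rw [hww]
  apply H790.NF.ext2
  · show v 0 = _
    rw [hv0]
    simp
  · show v 1 = _
    simp

end Dyn

end Vale.Agent.P207.N3.H975
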